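import Vale.Agent.Snaky.Sound
import Vale.Agent.Snaky.LData.Cert

namespace Vale.Agent.Snaky.LD

open Vale.Agent.Snaky

theorem ok1 : d1.all (chkPat cert.get) = true := by decide +kernel

theorem ok9 : d9.all (chkPat cert.get) = true := by decide +kernel

theorem ok17 : d17.all (chkPat cert.get) = true := by decide +kernel

theorem ok25 : d25.all (chkPat cert.get) = true := by decide +kernel

theorem ok33 : d33.all (chkPat cert.get) = true := by decide +kernel

theorem ok41 : d41.all (chkPat cert.get) = true := by decide +kernel

theorem ok49 : d49.all (chkPat cert.get) = true := by decide +kernel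

theorem ok57 : d57.all (chkPat cert.get) = true := by decide +kernel

end Vale.Agent.Snaky.LD
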