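import Vale.Agent.Snaky.Sound
import Vale.Agent.Snaky.LData.Cert

namespace Vale.Agent.Snaky.LD

open Vale.Agent.Snaky

theorem ok3 : d3.all (chkPat cert.get) = true := by decide +kernel

theorem ok11 : d11.all (chkPat cert.get) = true := by decide +kernel

theorem ok19 : d19.all (chkPat cert.get) = true := by decide +kernel

theorem ok27 : d27.all (chkPat cert.get) = true := by decide +kernel

theorem ok35 : d35.all (chkPat cert.get) = true := by decide +kernel

theorem ok43 : d43.all (chkPat cert.get) = true := by decide +kernel

theorem ok51 : d51.all (chkPat cert.get) = true := by decide +kernel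

theorem ok59 : d59.all (chkPat cert.get) = true := by decide +kernel

end Vale.Agent.Snaky.LD
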