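import Vale.Agent.Snaky.Sound
import Vale.Agent.Snaky.LData.Cert

namespace Vale.Agent.Snaky.LD

open Vale.Agent.Snaky

theorem ok4 : d4.all (chkPat cert.get) = true := by decide +kernel

theorem ok12 : d12.all (chkPat cert.get) = true := by decide +kernel

theorem ok20 : d20.all (chkPat cert.get) = true := by decide +kernel

theorem ok28 : d28.all (chkPat cert.get) = true := by decide +kernel

theorem ok36 : d36.all (chkPat cert.get) = true := by decide +kernel

theorem ok44 : d44.all (chkPat cert.get) = true := by decide +kernel

theorem ok52 : d52.all (chkPat cert.get) = true := by decide +kernel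

theorem ok60 : d60.all (chkPat cert.get) = true := by decide +kernel

end Vale.Agent.Snaky.LD
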